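import Vale.Agent.P315.Main

namespace Vale.Agent.Results.P315.EqTestLowerBound

open Vale.Agent.P315

/-- Unconditional quadratic lower bound in the equality-test model.  Let `T` be a deterministic
decision tree whose only access to two strings `x`, `y` of length `n` over an alphabet of size `2n`
is to test whether the symbols at two of the `2n` positions are equal.  If on every input the output
`D` of `T` satisfies `ED(x,y) ≤ D ≤ c * ED(x,y)`, then `T` makes at least `n^2 / (4 c^2)` tests in the
worst case. -/
theorem result (n : ℕ) (c : ℝ) (hc : 1 ≤ c) (T : EqTree (Fin n ⊕ Fin n))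
    (hT : ∀ x y : Fin n → Fin (2 * n),
      (editDist (List.ofFn x) (List.ofFn y) : ℝ) ≤ T.eval (Sum.elim x y) ∧
      T.eval (Sum.elim x y) ≤ c * editDist (List.ofFn x) (List.ofFn y)) :
    (n : ℝ) ^ 2 / (4 * c ^ 2) ≤ T.depth :=
  main_lower_bound n c hc T hT

end Vale.Agent.Results.P315.EqTestLowerBound
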